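import Vale.Agent.P181.R2.H280.NDefs

/-!
# P181, all numbers of rows, row N7 `tstep` (helper999)
-/

set_option autoImplicit false

open MvPolynomial Finset

namespace Vale.Agent.P181.TN

open Vale.Agent.P181 Vale.Agent.P181.H536 Vale.Agent.P181.H280

namespace H999

/-! ## Polynomial identities -/

lemma coeff_eq {n : ℕ} {u v : ℕ → ℂ}
    (h : ∀ c : ℂ, ∑ j ∈ range n, c ^ j * u j = ∑ j ∈ range n, c ^ j * v j) {j : ℕ} (hj : j < n) :
    u j = v j := by
  have h1 : (∑ i ∈ range n, Polynomial.C (u i) * Polynomial.X ^ i : Polynomial ℂ) =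
      ∑ i ∈ range n, Polynomial.C (v i) * Polynomial.X ^ i := by
    apply Polynomial.funext
    intro c
    simp only [Polynomial.eval_finsetSum, Polynomial.eval_mul, Polynomial.eval_C,
      Polynomial.eval_pow, Polynomial.eval_X]
    simpa only [mul_comm] using h c
  have h2 := congrArg (fun q => q.coeff j) h1
  simp only [Polynomial.finsetSum_coeff, Polynomial.coeff_C_mul, Polynomial.coeff_X_pow] at h2
  simpa [hj] using h2

lemma eval_reflect {K : ℕ} {p : Polynomial ℂ} (hp : p.natDegree ≤ K) {c : ℂ} (hc : c ≠ 0) :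
    (Polynomial.reflect K p).eval c = c ^ K * p.eval c⁻¹ := by
  have hc' : c⁻¹ ≠ 0 := inv_ne_zero hc
  letI : Invertible c⁻¹ := invertibleOfNonzero hc'
  have h1 := Polynomial.eval₂_reflect_mul_pow (RingHom.id ℂ) c⁻¹ K p hp
  have h2 : (⅟(c⁻¹) : ℂ) = c := by
    rw [invOf_eq_inv, inv_inv]
  rw [h2] at h1
  change Polynomial.eval c (Polynomial.reflect K p) * c⁻¹ ^ K = Polynomial.eval c⁻¹ p at h1
  rw [← h1, inv_pow, mul_comm, mul_assoc, inv_mul_cancel₀ (pow_ne_zero _ hc), mul_one]

lemma coeff_laurent {j m K : ℕ} {A : ℕ → ℂ} {r : ℕ → Polynomial ℂ}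
    (hr : ∀ i, i < j + 1 → (r i).natDegree ≤ K) (hj : j < m)
    (h : ∀ c : ℂ, c ≠ 0 → ∑ l ∈ range m, c ^ l * A l =
      ∑ i ∈ range (j + 1), c ^ i * (r i).eval c⁻¹) : A j = (r j).eval 0 := by
  have h1 : (∑ l ∈ range m, Polynomial.C (A l) * Polynomial.X ^ l : Polynomial ℂ) *
      Polynomial.X ^ K = ∑ i ∈ range (j + 1), Polynomial.reflect K (r i) * Polynomial.X ^ i := by
    apply sub_eq_zero.1
    apply Polynomial.eq_zero_of_infinite_isRoot
    apply Set.Infinite.mono (s := {0}ᶜ)
    · intro c hc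
      have hc0 : c ≠ 0 := hc
      have h2 := h c hc0
      simp only [Polynomial.IsRoot, Polynomial.eval_sub, Polynomial.eval_mul,
        Polynomial.eval_finsetSum, Polynomial.eval_C, Polynomial.eval_pow, Polynomial.eval_X,
        Set.mem_ofPred_eq]
      rw [sub_eq_zero]
      have h3 : ∑ l ∈ range m, A l * c ^ l = ∑ l ∈ range m, c ^ l * A l :=
        Finset.sum_congr rfl (fun _ _ => mul_comm _ _)
      rw [h3, h2, Finset.sum_mul]
      apply Finset.sum_congr rfl
      intro i hi
      rw [Finset.mem_range] at hi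
      rw [eval_reflect (hr i hi) hc0]
      ring
    · exact Set.Finite.infinite_compl (Set.finite_singleton 0)
  have h2 := congrArg (fun q => q.coeff (j + K)) h1
  simp only [Polynomial.coeff_mul_X_pow, Polynomial.finsetSum_coeff] at h2
  simp only [Polynomial.coeff_C_mul, Polynomial.coeff_X_pow] at h2
  have h3 : ∑ l ∈ range m, A l * (if j = l then (1 : ℂ) else 0) = A j := by
    simp [hj]
  rw [h3] at h2
  rw [h2, Finset.sum_range_succ]
  have h4 : ∑ i ∈ range j, (Polynomial.reflect K (r i) * Polynomial.X ^ i).coeff (j + K) = 0 := by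
    apply Finset.sum_eq_zero
    intro i hi
    rw [Finset.mem_range] at hi
    have h5 : j + K = (j + K - i) + i := by omega
    rw [h5, Polynomial.coeff_mul_X_pow, Polynomial.coeff_reflect,
      Polynomial.revAt_eq_self_of_lt (by omega)]
    exact Polynomial.coeff_eq_zero_of_natDegree_lt (by have := hr i (by omega); omega)
  rw [h4, zero_add, add_comm j K, Polynomial.coeff_mul_X_pow, Polynomial.coeff_reflect,
    Polynomial.revAt_le le_rfl, Nat.sub_self, Polynomial.coeff_zero_eq_eval_zero]

lemma zero_of_scal {q : Polynomial ℂ} {g : ℂ} {n : ℕ} (hn : 1 ≤ n)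
    (h : ∀ d : ℂ, d ≠ 0 → q.eval d * d ^ n = g) : g = 0 := by
  have h1 : q * Polynomial.X ^ n - Polynomial.C g = 0 := by
    apply Polynomial.eq_zero_of_infinite_isRoot
    apply Set.Infinite.mono (s := {0}ᶜ)
    · intro d hd
      have := h d hd
      simp [Polynomial.IsRoot, this]
    · exact Set.Finite.infinite_compl (Set.finite_singleton 0)
  have h2 := congrArg (fun p => p.eval 0) h1
  have hn' : n ≠ 0 := by omega
  simpa [hn'] using h2

/-! ## Curves -/

lemma curve_add {n : ℕ} {f g : ℂ → Sn n} {k m : ℕ} (hf : IsCurve k f) (hg : IsCurve m g) :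
    IsCurve (max k m) (fun d => f d + g d) := by
  obtain ⟨c, hc⟩ := hf
  obtain ⟨e, he⟩ := hg
  refine ⟨fun l => (if l < k + 1 then c l else 0) + (if l < m + 1 then e l else 0),
    fun d => ?_⟩
  change f d + g d = _
  rw [hc d, he d]
  simp only [smul_add, Finset.sum_add_distrib]
  congr 1
  · simp only [smul_ite, smul_zero]
    rw [← Finset.sum_filter]
    apply Finset.sum_congr _ (fun _ _ => rfl)
    ext l
    simp only [Finset.mem_range, Finset.mem_filter]
    omega
  · simp only [smul_ite, smul_zero]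
    rw [← Finset.sum_filter]
    apply Finset.sum_congr _ (fun _ _ => rfl)
    ext l
    simp only [Finset.mem_range, Finset.mem_filter]
    omega

lemma curve_scal {n : ℕ} (P : Sn n) : ∃ k, IsCurve k (fun d => scal n d P) := by
  induction P using MvPolynomial.induction_on with
  | C r =>
    refine ⟨0, fun _ => C r, fun d => ?_⟩
    simp only [zero_add, Finset.range_one, Finset.sum_singleton, pow_zero, one_smul]
    exact AlgHom.commutes _ _
  | add p q hp hq =>
    obtain ⟨k, hk⟩ := hp
    obtain ⟨m, hm⟩ := hq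
    refine ⟨max k m, ?_⟩
    have h := curve_add hk hm
    simpa only [← map_add] using h
  | mul_X p i hp =>
    obtain ⟨k, c, hc⟩ := hp
    refine Fin.cases ?_ (fun i => ?_) i
    · refine ⟨k, fun l => c l * X 0, fun d => ?_⟩
      change scal n d (p * X 0) = _
      have hc' : scal n d p = _ := hc d
      rw [map_mul, hc', scal_zero, Finset.sum_mul]
      simp only [smul_mul_assoc]
    · refine Fin.cases ?_ (fun i => ?_) i
      · refine ⟨k, fun l => c l * X 1, fun d => ?_⟩
        change scal n d (p * X 1) = _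
        have hc' : scal n d p = _ := hc d
        rw [map_mul, hc', scal_one, Finset.sum_mul]
        simp only [smul_mul_assoc]
      · refine ⟨k + 1, fun l => if l = 0 then 0 else c (l - 1) * X i.succ.succ, fun d => ?_⟩
        change scal n d (p * X i.succ.succ) = _
        have hc' : scal n d p = _ := hc d
        rw [map_mul, hc', scal_succ, Finset.sum_mul]
        conv_rhs => rw [Finset.sum_range_succ']
        simp only [if_true, smul_zero, add_zero, Nat.add_sub_cancel, Nat.succ_ne_zero, if_false]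
        apply Finset.sum_congr rfl
        intro l _
        rw [pow_succ, smul_mul_smul_comm]

/-! ## The coefficient forms -/

variable {n a : ℕ}

/-- The coefficient of `c ^ j` of `F ((ξ + c ζ) P_i)`. -/
noncomputable def cf (F : Fm n a) (ξ ζ : Sn n) (j : ℕ) : Fm n a :=
  ∑ s ∈ (Finset.univ : Finset (Finset (Fin a))).filter (fun s => sᶜ.card = j),
    F.compLinearMap (fun i => LinearMap.mulLeft ℂ (if i ∈ s then ξ else ζ))

lemma expand (F : Fm n a) (ξ ζ : Sn n) (c : ℂ) :
    mulArg F (fun _ => ξ + c • ζ) = ∑ j ∈ range (a + 1), c ^ j • cf F ξ ζ j := by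
  ext P
  rw [mulArg_apply]
  have h0 : (fun i => (ξ + c • ζ) * P i) = (fun i => ξ * P i) + (fun i => c • (ζ * P i)) := by
    funext i
    simp [add_mul]
  rw [h0, MultilinearMap.map_add_univ]
  simp only [_root_.sum_apply, smul_apply, smul_eq_mul, cf,
    Finset.mul_sum]
  rw [← Finset.sum_fiberwise_of_maps_to (s := (Finset.univ : Finset (Finset (Fin a))))
    (t := range (a + 1)) (g := fun s => sᶜ.card)]
  · apply Finset.sum_congr rfl
    intro j _
    apply Finset.sum_congr rfl
    intro s hs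
    rw [Finset.mem_filter] at hs
    have h2 : s.piecewise (fun i => ξ * P i) (fun i => c • (ζ * P i)) =
        sᶜ.piecewise (fun i => c • ((if i ∈ s then ξ else ζ) * P i))
        (fun i => (if i ∈ s then ξ else ζ) * P i) := by
      funext i
      by_cases hi : i ∈ s
      · simp [Finset.piecewise, hi]
      · simp [Finset.piecewise, hi]
    rw [h2, MultilinearMap.map_piecewise_smul, Finset.prod_const, hs.2, smul_eq_mul,
      MultilinearMap.compLinearMap_apply]
    rfl
  · intro s _
    rw [Finset.mem_range]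
    have := Finset.card_le_univ sᶜ
    rw [Fintype.card_fin] at this
    omega

lemma expand_apply (F : Fm n a) (ξ ζ : Sn n) (c : ℂ) (P : Fin a → Sn n) :
    F (fun i => (ξ + c • ζ) * P i) = ∑ j ∈ range (a + 1), c ^ j * cf F ξ ζ j P := by
  have h := congrArg (fun G : Fm n a => G P) (expand F ξ ζ c)
  simp only [mulArg_apply, _root_.sum_apply, smul_apply, smul_eq_mul] at h
  exact h

/-- The coefficient forms depend polynomially on the direction. -/
lemma cf_poly (F : Fm n a) (ξ z y : Sn n) (j : ℕ) (P : Fin a → Sn n) :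
    ∃ r : Polynomial ℂ, ∀ e : ℂ, r.eval e = cf F ξ (z + e • y) j P := by
  have h : ∀ s : Finset (Fin a), ∃ r : Polynomial ℂ, ∀ e : ℂ,
      r.eval e = F (fun i => (if i ∈ s then ξ else z + e • y) * P i) := by
    intro s
    obtain ⟨q, -, hq⟩ := exists_poly F (fun i e => (if i ∈ s then ξ else z + e • y) * P i)
      (fun _ => 1) (fun i => by
        by_cases hi : i ∈ s
        · refine ⟨fun l => if l = 0 then ξ * P i else 0, fun e => ?_⟩
          simp [hi, Finset.sum_range_succ]
        · refine ⟨fun l => if l = 0 then z * P i else y * P i, fun e => ?_⟩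
          simp [hi, Finset.sum_range_succ, add_mul])
    exact ⟨q, fun e => hq e⟩
  choose r hr using h
  refine ⟨∑ s ∈ (Finset.univ : Finset (Finset (Fin a))).filter (fun s => sᶜ.card = j), r s,
    fun e => ?_⟩
  rw [Polynomial.eval_finsetSum, cf]
  simp only [_root_.sum_apply, MultilinearMap.compLinearMap_apply]
  apply Finset.sum_congr rfl
  intro s _
  rw [hr s e]
  rfl

lemma cf_symm {F : Fm n a} (hF : IsSymm F) (ξ ζ : Sn n) {j : ℕ} (hj : j < a + 1) :
    IsSymm (cf F ξ ζ j) := by
  intro σ P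
  refine coeff_eq (n := a + 1) (u := fun j => cf F ξ ζ j (fun i => P (σ i)))
    (v := fun j => cf F ξ ζ j P) ?_ hj
  intro c
  rw [← expand_apply, ← expand_apply]
  exact hF σ (fun i => (ξ + c • ζ) * P i)

lemma cf_isK {F : Fm n a} {b : ℕ} (hF : IsK (linS (n + 2)) (b + 1) F) {ξ ζ : Sn n}
    (hξ : ∀ c : ℂ, ξ + c • ζ ∈ linS (n + 2)) {j : ℕ} (hj : j < a + 1) :
    IsK (linS (n + 2)) b (cf F ξ ζ j) := by
  intro m hm hmL
  refine coeff_eq (n := a + 1) (u := fun j => cf F ξ ζ j (fun _ => m.prod))
    (v := fun _ => 0) ?_ hj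
  intro c
  rw [← expand_apply]
  simp only [mul_zero, Finset.sum_const_zero]
  have h1 := hF ((ξ + c • ζ) ::ₘ m) (by rw [Multiset.card_cons, hm]) (by
    intro x hx
    rcases Multiset.mem_cons.1 hx with rfl | hx
    · exact hξ c
    · exact hmL x hx)
  rw [Multiset.prod_cons] at h1
  exact h1

lemma cf_scal {F : Fm n a} {b t : ℕ} (hF : Hom (b + 1) t F) (x : ℂ) {z : Sn n} (hz : z ∈ ZZ n)
    {j : ℕ} (hj : j < a + 1) {P : Fin a → Sn n} (hP : Dg b P) {d : ℂ} (hd : d ≠ 0) :
    cf F (ln n x) z j (fun i => scal n d (P i)) * d ^ j = d ^ t * cf F (ln n x) z j P := by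
  refine coeff_eq (n := a + 1)
    (u := fun j => cf F (ln n x) z j (fun i => scal n d (P i)) * d ^ j)
    (v := fun j => d ^ t * cf F (ln n x) z j P) ?_ hj
  intro c
  have h1 := hF d hd (fun i => (ln n x + c • z) * P i)
    (Dg_mul (b := b + 1) (by omega) hP (line_mem ((ZZ n).smul_mem c hz) x))
  have h2 : (fun i => scal n d ((ln n x + c • z) * P i)) =
      fun i => (ln n x + (c * d) • z) * scal n d (P i) := by
    funext i
    rw [map_mul, map_add, map_smul, scal_Z hz, scal_ln, smul_smul]
  rw [h2, expand_apply, expand_apply, Finset.mul_sum] at h1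
  calc _ = ∑ j ∈ range (a + 1), (c * d) ^ j * cf F (ln n x) z j (fun i => scal n d (P i)) := by
        apply Finset.sum_congr rfl
        intro i _
        rw [mul_pow]; ring
    _ = _ := h1
    _ = _ := by
        apply Finset.sum_congr rfl
        intro i _
        ring

lemma cf_hom {F : Fm n a} {b t : ℕ} (hF : Hom (b + 1) t F) (x : ℂ) {z : Sn n} (hz : z ∈ ZZ n)
    {j : ℕ} (hj : j < a + 1) (hjt : j ≤ t) : Hom b (t - j) (cf F (ln n x) z j) := by
  intro d hd P hP
  have h1 := cf_scal hF x hz hj hP hd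
  have h2 : d ^ t = d ^ (t - j) * d ^ j := by rw [← pow_add]; congr 1; omega
  rw [h2] at h1
  have h3 : d ^ j ≠ 0 := pow_ne_zero _ hd
  apply mul_right_cancel₀ h3
  rw [h1]; ring

lemma cf_zero {F : Fm n a} {b t : ℕ} (hF : Hom (b + 1) t F) (x : ℂ) {z : Sn n} (hz : z ∈ ZZ n)
    {j : ℕ} (hj : j < a + 1) (hjt : t < j) : Van b (cf F (ln n x) z j) := by
  intro P hP
  choose k hk using fun i => curve_scal (P i)
  obtain ⟨q, -, hq⟩ := exists_poly (cf F (ln n x) z j) (fun i d => scal n d (P i)) k hk
  apply zero_of_scal (q := q) (n := j - t) (by omega)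
  intro d hd
  rw [hq d]
  have h1 := cf_scal hF x hz hj hP hd
  have h2 : d ^ j = d ^ (j - t) * d ^ t := by rw [← pow_add]; congr 1; omega
  rw [h2] at h1
  have h3 : d ^ t ≠ 0 := pow_ne_zero _ hd
  apply mul_right_cancel₀ h3
  rw [mul_assoc, h1]; ring

lemma cf_inv {F : Fm n a} {b : ℕ} (hF : Inv (b + 1) F) (x : ℂ) {z : Sn n} (hz : z ∈ ZZ n)
    {j : ℕ} (hj : j < a + 1)
    (hv : ∀ i, j < i → i < a + 1 → ∀ y ∈ ZZ n, Van b (cf F (ln n x) y i)) :
    Inv b (cf F (ln n x) z j) := by
  intro y hy P hP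
  have key : ∀ v ∈ ZZ n, ∀ c : ℂ, F (fun i => (ln n x + c • v) * P i) =
        ∑ i ∈ range (j + 1), c ^ i * cf F (ln n x) v i P := by
    intro v hv' c
    rw [expand_apply]
    symm
    apply Finset.sum_subset
    · intro i hi
      rw [Finset.mem_range] at hi ⊢
      omega
    · intro i hi hi'
      rw [Finset.mem_range] at hi hi'
      rw [hv i (by omega) hi v hv' P hP, mul_zero]
  choose r hr using fun i => cf_poly F (ln n x) z (-y) i P
  have h0 : (r j).eval 0 = cf F (ln n x) z j P := by
    rw [hr j 0, zero_smul, add_zero]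
  rw [← h0]
  refine coeff_laurent (K := ∑ i ∈ range (j + 1), (r i).natDegree) (m := a + 1)
    (A := fun l => cf F (ln n x) z l (fun i => sh n y (P i))) (r := r) ?_ hj ?_
  · intro i hi
    exact Finset.single_le_sum (f := fun i => (r i).natDegree) (fun _ _ => Nat.zero_le _)
      (Finset.mem_range.2 hi)
  · intro c hc
    have h1 : ∑ l ∈ range (a + 1), c ^ l * cf F (ln n x) z l (fun i => sh n y (P i)) =
        F (fun i => (ln n x + c • z) * sh n y (P i)) := (expand_apply _ _ _ _ _).symm
    have h2 : ∀ i, (r i).eval c⁻¹ = cf F (ln n x) (z + c⁻¹ • -y) i P := fun i => hr i _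
    have hzy : z + c⁻¹ • -y ∈ ZZ n :=
      (ZZ n).add_mem hz ((ZZ n).smul_mem _ ((ZZ n).neg_mem hy))
    simp only [h2]
    rw [h1, ← key _ hzy c]
    rw [← hF y hy (fun i => (ln n x + c • (z + c⁻¹ • -y)) * P i)
      (Dg_mul (b := b + 1) (by omega) hP (line_mem ((ZZ n).smul_mem c hzy) x))]
    congr 1
    funext i
    rw [map_mul, map_add, map_smul, sh_Z hzy, sh_ln]
    congr 1
    rw [smul_add, smul_smul, mul_inv_cancel₀ hc, one_smul]
    abel

lemma cf_van {F : Fm n a} {s b t : ℕ} (hsy : IsSymm F) (hI : Inv (b + 1) F)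
    (hH : Hom (b + 1) t F) (hk : IsK (linS (n + 2)) (b + 1) F)
    (hK : ∀ t', t' + s ≤ t → KK n a b t') (x : ℂ) :
    ∀ j, s ≤ j → j < a + 1 → ∀ z ∈ ZZ n, Van b (cf F (ln n x) z j) := by
  suffices h : ∀ m j, a + 1 ≤ j + m → s ≤ j → j < a + 1 →
      ∀ z ∈ ZZ n, Van b (cf F (ln n x) z j) by
    intro j h1 h2
    exact h (a + 1) j (by omega) h1 h2
  intro m
  induction m with
  | zero => intro j h1 h2 h3; omega
  | succ m ih =>
    intro j h1 h2 h3 z hz
    by_cases hjt : j ≤ t
    · refine hK (t - j) (by omega) _ (cf_symm hsy _ _ h3) ?_ (cf_hom hH x hz h3 hjt)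
        (cf_isK hk (fun c => line_mem ((ZZ n).smul_mem c hz) x) h3)
      exact cf_inv hI x hz h3 (fun i hi1 hi2 y hy => ih i (by omega) (by omega) hi2 y hy)
    · exact cf_zero hH x hz h3 (by omega)

/-- Row N7: the kernel step (second proof; the assembly uses the one of helper866). -/
theorem tstep {n s a b t : ℕ} (_hs : 1 ≤ s) (hK : ∀ t', t' + s ≤ t → KK n a b t') (F : Fm n a)
    (hsy : IsSymm F) (hI : Inv (b + 1) F) (hH : Hom (b + 1) t F)
    (hF : IsK (linS (n + 2)) (b + 1) F) : QQ s (b + 1) F := by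
  intro x z hz h hh
  rw [Nat.add_sub_cancel] at hh
  refine ⟨∑ j ∈ range s, Polynomial.C (if j < a + 1 then cf F (ln n x) z j h else 0) *
    Polynomial.X ^ j, ?_, ?_⟩
  · rw [Polynomial.degree_lt_iff_coeff_zero]
    intro m hm
    rw [Polynomial.finsetSum_coeff]
    apply Finset.sum_eq_zero
    intro i hi
    rw [Finset.mem_range] at hi
    rw [Polynomial.coeff_C_mul, Polynomial.coeff_X_pow]
    have hmi : m ≠ i := by omega
    simp [hmi]
  · intro c
    rw [expand_apply, Polynomial.eval_finsetSum]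
    simp only [Polynomial.eval_mul, Polynomial.eval_C, Polynomial.eval_pow, Polynomial.eval_X]
    have h1 : ∀ j ∈ range (a + 1), c ^ j * cf F (ln n x) z j h =
        if j < s then c ^ j * cf F (ln n x) z j h else 0 := by
      intro j hj
      rw [Finset.mem_range] at hj
      by_cases hjs : j < s
      · rw [if_pos hjs]
      · rw [if_neg hjs, cf_van hsy hI hH hF hK x j (by omega) hj z hz h hh, mul_zero]
    rw [Finset.sum_congr rfl h1, ← Finset.sum_filter]
    have h2 : ∀ j ∈ range s, (if j < a + 1 then cf F (ln n x) z j h else 0) * c ^ j =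
        if j < a + 1 then c ^ j * cf F (ln n x) z j h else 0 := by
      intro j _
      split_ifs
      · ring
      · ring
    rw [Finset.sum_congr rfl h2, ← Finset.sum_filter]
    apply Finset.sum_congr _ (fun _ _ => rfl)
    ext j
    simp only [Finset.mem_range, Finset.mem_filter]
    tauto

end H999

end Vale.Agent.P181.TN
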