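import Vale.Agent.P181.R2.H151.MDefs
import Vale.Agent.P181.R2.H999.NTStep

/-!
# P181, all shears, row M3 `tstep2` (helper999)
-/

set_option autoImplicit false

open MvPolynomial Finset

namespace Vale.Agent.P181.TM

open Vale.Agent.P181 Vale.Agent.P181.H536 Vale.Agent.P181.H280 Vale.Agent.P181.TN

namespace H999

open Vale.Agent.P181.TN.H999

variable {n a : ℕ}

lemma cf_inv2 {F : Fm n a} {b : ℕ} (hF : Inv2 (b + 1) F) (x : ℂ) {z : Sn n} (hz : z ∈ ZZ n)
    {j : ℕ} (hj : j < a + 1)
    (hv : ∀ i, j < i → i < a + 1 → ∀ y ∈ ZZ n, Van b (cf F (ln n x) y i)) :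
    Inv2 b (cf F (ln n x) z j) := by
  intro y1 hy1 w hw P hP
  set y : Sn n := y1 + x • w with hydef
  have hy : y ∈ ZZ n := (ZZ n).add_mem hy1 ((ZZ n).smul_mem x hw)
  have key : ∀ v ∈ ZZ n, ∀ c : ℂ, F (fun i => (ln n x + c • v) * P i) =
        ∑ i ∈ range (j + 1), c ^ i * cf F (ln n x) v i P := by
    intro v hv' c
    rw [expand_apply]
    symm
    apply Finset.sum_subset
    · intro i hi
      rw [Finset.mem_range] at hi ⊢
      omega
    · intro i hi hi'
      rw [Finset.mem_range] at hi hi'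
      rw [hv i (by omega) hi v hv' P hP, mul_zero]
  choose r hr using fun i => cf_poly F (ln n x) z (-y) i P
  have h0 : (r j).eval 0 = cf F (ln n x) z j P := by
    rw [hr j 0, zero_smul, add_zero]
  rw [← h0]
  refine coeff_laurent (K := ∑ i ∈ range (j + 1), (r i).natDegree) (m := a + 1)
    (A := fun l => cf F (ln n x) z l (fun i => shr n y1 w (P i))) (r := r) ?_ hj ?_
  · intro i hi
    exact Finset.single_le_sum (f := fun i => (r i).natDegree) (fun _ _ => Nat.zero_le _)
      (Finset.mem_range.2 hi)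
  · intro c hc
    have h1 : ∑ l ∈ range (a + 1), c ^ l * cf F (ln n x) z l (fun i => shr n y1 w (P i)) =
        F (fun i => (ln n x + c • z) * shr n y1 w (P i)) := (expand_apply _ _ _ _ _).symm
    have h2 : ∀ i, (r i).eval c⁻¹ = cf F (ln n x) (z + c⁻¹ • -y) i P := fun i => hr i _
    have hzy : z + c⁻¹ • -y ∈ ZZ n :=
      (ZZ n).add_mem hz ((ZZ n).smul_mem _ ((ZZ n).neg_mem hy))
    simp only [h2]
    rw [h1, ← key _ hzy c]
    rw [← hF y1 hy1 w hw (fun i => (ln n x + c • (z + c⁻¹ • -y)) * P i)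
      (Dg_mul (b := b + 1) (by omega) hP (line_mem ((ZZ n).smul_mem c hzy) x))]
    congr 1
    funext i
    rw [map_mul, map_add, map_smul, shr_Z hzy, shr_ln]
    congr 1
    rw [smul_add, smul_smul, mul_inv_cancel₀ hc, one_smul, hydef]
    abel

lemma cf_van2 {F : Fm n a} {s b t : ℕ} (hsy : IsSymm F) (hI : Inv2 (b + 1) F)
    (hH : Hom (b + 1) t F) (hk : IsK (linS (n + 2)) (b + 1) F)
    (hK : ∀ t', t' + s ≤ t → KK2 n a b t') (x : ℂ) :
    ∀ j, s ≤ j → j < a + 1 → ∀ z ∈ ZZ n, Van b (cf F (ln n x) z j) := by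
  suffices h : ∀ m j, a + 1 ≤ j + m → s ≤ j → j < a + 1 →
      ∀ z ∈ ZZ n, Van b (cf F (ln n x) z j) by
    intro j h1 h2
    exact h (a + 1) j (by omega) h1 h2
  intro m
  induction m with
  | zero => intro j h1 h2 h3; omega
  | succ m ih =>
    intro j h1 h2 h3 z hz
    by_cases hjt : j ≤ t
    · refine hK (t - j) (by omega) _ (cf_symm hsy _ _ h3) ?_ (cf_hom hH x hz h3 hjt)
        (cf_isK hk (fun c => line_mem ((ZZ n).smul_mem c hz) x) h3)
      exact cf_inv2 hI x hz h3 (fun i hi1 hi2 y hy => ih i (by omega) (by omega) hi2 y hy)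
    · exact cf_zero hH x hz h3 (by omega)

lemma qq_of_cf {F : Fm n a} {s b : ℕ}
    (hv : ∀ (x : ℂ) (j : ℕ), s ≤ j → j < a + 1 → ∀ z ∈ ZZ n, Van b (cf F (ln n x) z j)) :
    QQ s (b + 1) F := by
  intro x z hz h hh
  rw [Nat.add_sub_cancel] at hh
  refine ⟨∑ j ∈ range s, Polynomial.C (if j < a + 1 then cf F (ln n x) z j h else 0) *
    Polynomial.X ^ j, ?_, ?_⟩
  · rw [Polynomial.degree_lt_iff_coeff_zero]
    intro m hm
    rw [Polynomial.finsetSum_coeff]
    apply Finset.sum_eq_zero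
    intro i hi
    rw [Finset.mem_range] at hi
    rw [Polynomial.coeff_C_mul, Polynomial.coeff_X_pow]
    have hmi : m ≠ i := by omega
    simp [hmi]
  · intro c
    rw [expand_apply, Polynomial.eval_finsetSum]
    simp only [Polynomial.eval_mul, Polynomial.eval_C, Polynomial.eval_pow, Polynomial.eval_X]
    have h1 : ∀ j ∈ range (a + 1), c ^ j * cf F (ln n x) z j h =
        if j < s then c ^ j * cf F (ln n x) z j h else 0 := by
      intro j hj
      rw [Finset.mem_range] at hj
      by_cases hjs : j < s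
      · rw [if_pos hjs]
      · rw [if_neg hjs, hv x j (by omega) hj z hz h hh, mul_zero]
    rw [Finset.sum_congr rfl h1, ← Finset.sum_filter]
    have h2 : ∀ j ∈ range s, (if j < a + 1 then cf F (ln n x) z j h else 0) * c ^ j =
        if j < a + 1 then c ^ j * cf F (ln n x) z j h else 0 := by
      intro j _
      split_ifs
      · ring
      · ring
    rw [Finset.sum_congr rfl h2, ← Finset.sum_filter]
    apply Finset.sum_congr _ (fun _ _ => rfl)
    ext j
    simp only [Finset.mem_range, Finset.mem_filter]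
    tauto

end H999

/-- Row M3: the kernel step for all shears. -/
theorem tstep2 {n s a b t : ℕ} (_hs : 1 ≤ s) (hK : ∀ t', t' + s ≤ t → KK2 n a b t') (F : Fm n a)
    (hsy : IsSymm F) (hI : Inv2 (b + 1) F) (hH : Hom (b + 1) t F)
    (hF : IsK (linS (n + 2)) (b + 1) F) : QQ s (b + 1) F :=
  H999.qq_of_cf fun x => H999.cf_van2 hsy hI hH hF hK x

end Vale.Agent.P181.TM
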