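import Vale.Agent.P181.R2.H556.ThreeDefs

/-!
# P181.ThreeRowTail, row R8 `tstep` (helper999)
-/

set_option autoImplicit false

open MvPolynomial Finset

namespace Vale.Agent.P181.T3R

open Vale.Agent.P181 Vale.Agent.P181.H536 Vale.Agent.P181.H280

namespace H999

/-! ## Polynomial identities -/

lemma coeff_eq {n : ℕ} {u v : ℕ → ℂ}
    (h : ∀ c : ℂ, ∑ j ∈ range n, c ^ j * u j = ∑ j ∈ range n, c ^ j * v j) {j : ℕ} (hj : j < n) :
    u j = v j := by
  have h1 : (∑ i ∈ range n, Polynomial.C (u i) * Polynomial.X ^ i : Polynomial ℂ) =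
      ∑ i ∈ range n, Polynomial.C (v i) * Polynomial.X ^ i := by
    apply Polynomial.funext
    intro c
    simp only [Polynomial.eval_finsetSum, Polynomial.eval_mul, Polynomial.eval_C,
      Polynomial.eval_pow, Polynomial.eval_X]
    simpa only [mul_comm] using h c
  have h2 := congrArg (fun q => q.coeff j) h1
  simp only [Polynomial.finsetSum_coeff, Polynomial.coeff_C_mul, Polynomial.coeff_X_pow] at h2
  simpa [hj] using h2

lemma top_eq {j : ℕ} {u v : ℕ → ℂ} {e : ℂ}
    (h : ∀ c : ℂ, ∑ i ∈ range (j + 1), c ^ i * u i = ∑ i ∈ range (j + 1), (c - e) ^ i * v i) :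
    u j = v j := by
  have h1 : (∑ i ∈ range (j + 1), Polynomial.C (u i) * Polynomial.X ^ i : Polynomial ℂ) =
      ∑ i ∈ range (j + 1), Polynomial.C (v i) * (Polynomial.X - Polynomial.C e) ^ i := by
    apply Polynomial.funext
    intro c
    simp only [Polynomial.eval_finsetSum, Polynomial.eval_mul, Polynomial.eval_C,
      Polynomial.eval_pow, Polynomial.eval_X, Polynomial.eval_sub]
    simpa only [mul_comm] using h c
  have h2 := congrArg (fun q => q.coeff j) h1
  simp only [Polynomial.finsetSum_coeff, Polynomial.coeff_C_mul, Polynomial.coeff_X_pow] at h2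
  rw [Finset.sum_range_succ, Finset.sum_range_succ] at h2
  have h3 : ∑ i ∈ range j, u i * (if j = i then (1 : ℂ) else 0) = 0 := by
    apply Finset.sum_eq_zero
    intro i hi
    rw [Finset.mem_range] at hi
    rw [if_neg (by omega), mul_zero]
  have h4 : ∑ i ∈ range j, v i * ((Polynomial.X - Polynomial.C e) ^ i : Polynomial ℂ).coeff j = 0 := by
    apply Finset.sum_eq_zero
    intro i hi
    rw [Finset.mem_range] at hi
    rw [Polynomial.coeff_eq_zero_of_natDegree_lt, mul_zero]
    rw [Polynomial.natDegree_pow, Polynomial.natDegree_X_sub_C, mul_one]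
    exact hi
  have h5 : ((Polynomial.X - Polynomial.C e) ^ j : Polynomial ℂ).coeff j = 1 := by
    have := (Polynomial.monic_X_sub_C e).pow j
    rw [Polynomial.Monic, Polynomial.leadingCoeff, Polynomial.natDegree_pow,
      Polynomial.natDegree_X_sub_C, mul_one] at this
    exact this
  rw [h3, h4, h5] at h2
  simpa using h2

lemma zero_of_scal {q : Polynomial ℂ} {g : ℂ} {n : ℕ} (hn : 1 ≤ n)
    (h : ∀ d : ℂ, d ≠ 0 → q.eval d * d ^ n = g) : g = 0 := by
  have h1 : q * Polynomial.X ^ n - Polynomial.C g = 0 := by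
    apply Polynomial.eq_zero_of_infinite_isRoot
    apply Set.Infinite.mono (s := {0}ᶜ)
    · intro d hd
      have := h d hd
      simp [Polynomial.IsRoot, this]
    · exact Set.Finite.infinite_compl (Set.finite_singleton 0)
  have h2 := congrArg (fun p => p.eval 0) h1
  have hn' : n ≠ 0 := by omega
  simpa [hn'] using h2

/-! ## Curves -/

lemma curve_tau (P : S3) : ∃ n, IsCurve n (fun d => tau d P) := by
  induction P using MvPolynomial.induction_on with
  | C r =>
    refine ⟨0, fun _ => C r, fun d => ?_⟩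
    simp only [zero_add, Finset.range_one, Finset.sum_singleton, pow_zero, one_smul]
    exact AlgHom.commutes _ _
  | add p q hp hq =>
    obtain ⟨n, c, hc⟩ := hp
    obtain ⟨m, e, he⟩ := hq
    refine ⟨max n m, fun l => (if l < n + 1 then c l else 0) + (if l < m + 1 then e l else 0),
      fun d => ?_⟩
    have hc' : tau d p = _ := hc d
    have he' : tau d q = _ := he d
    change tau d (p + q) = _
    rw [map_add, hc', he']
    simp only [smul_add, Finset.sum_add_distrib]
    congr 1
    · simp only [smul_ite, smul_zero]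
      rw [← Finset.sum_filter]
      apply Finset.sum_congr _ (fun _ _ => rfl)
      ext l
      simp only [Finset.mem_range, Finset.mem_filter]
      omega
    · simp only [smul_ite, smul_zero]
      rw [← Finset.sum_filter]
      apply Finset.sum_congr _ (fun _ _ => rfl)
      ext l
      simp only [Finset.mem_range, Finset.mem_filter]
      omega
  | mul_X p i hp =>
    obtain ⟨n, c, hc⟩ := hp
    fin_cases i
    · refine ⟨n, fun l => c l * X 0, fun d => ?_⟩
      change tau d (p * X 0) = _
      have hc' : tau d p = _ := hc d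
      rw [map_mul, hc', tau_X0, Finset.sum_mul]
      simp only [smul_mul_assoc]
    · refine ⟨n, fun l => c l * X 1, fun d => ?_⟩
      change tau d (p * X 1) = _
      have hc' : tau d p = _ := hc d
      rw [map_mul, hc', tau_X1, Finset.sum_mul]
      simp only [smul_mul_assoc]
    · refine ⟨n + 1, fun l => if l = 0 then 0 else c (l - 1) * X 2, fun d => ?_⟩
      change tau d (p * X 2) = _
      have hc' : tau d p = _ := hc d
      rw [map_mul, hc', tau_X2, Finset.sum_mul]
      conv_rhs => rw [Finset.sum_range_succ']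
      simp only [if_true, smul_zero, add_zero, Nat.add_sub_cancel, Nat.succ_ne_zero, if_false]
      apply Finset.sum_congr rfl
      intro l _
      rw [pow_succ, smul_mul_smul_comm]

/-! ## The coefficient forms -/

variable {a : ℕ}

/-- The coefficient of `c ^ j` of `F ((ξ + c ζ) P_i)`. -/
noncomputable def cf (F : Fm a) (ξ ζ : S3) (j : ℕ) : Fm a :=
  ∑ s ∈ (Finset.univ : Finset (Finset (Fin a))).filter (fun s => sᶜ.card = j),
    F.compLinearMap (fun i => LinearMap.mulLeft ℂ (if i ∈ s then ξ else ζ))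

lemma expand (F : Fm a) (ξ ζ : S3) (c : ℂ) :
    mulArg F (fun _ => ξ + c • ζ) = ∑ j ∈ range (a + 1), c ^ j • cf F ξ ζ j := by
  ext P
  rw [mulArg_apply]
  have h0 : (fun i => (ξ + c • ζ) * P i) = (fun i => ξ * P i) + (fun i => c • (ζ * P i)) := by
    funext i
    simp [add_mul]
  rw [h0, MultilinearMap.map_add_univ]
  simp only [_root_.sum_apply, smul_apply, smul_eq_mul, cf,
    Finset.mul_sum]
  rw [← Finset.sum_fiberwise_of_maps_to (s := (Finset.univ : Finset (Finset (Fin a))))
    (t := range (a + 1)) (g := fun s => sᶜ.card)]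
  · apply Finset.sum_congr rfl
    intro j _
    apply Finset.sum_congr rfl
    intro s hs
    rw [Finset.mem_filter] at hs
    have h2 : s.piecewise (fun i => ξ * P i) (fun i => c • (ζ * P i)) =
        sᶜ.piecewise (fun i => c • ((if i ∈ s then ξ else ζ) * P i))
        (fun i => (if i ∈ s then ξ else ζ) * P i) := by
      funext i
      by_cases hi : i ∈ s
      · simp [Finset.piecewise, hi]
      · simp [Finset.piecewise, hi]
    rw [h2, MultilinearMap.map_piecewise_smul, Finset.prod_const, hs.2, smul_eq_mul,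
      MultilinearMap.compLinearMap_apply]
    rfl
  · intro s _
    rw [Finset.mem_range]
    have := Finset.card_le_univ sᶜ
    rw [Fintype.card_fin] at this
    omega

lemma expand_apply (F : Fm a) (ξ ζ : S3) (c : ℂ) (P : Fin a → S3) :
    F (fun i => (ξ + c • ζ) * P i) = ∑ j ∈ range (a + 1), c ^ j * cf F ξ ζ j P := by
  have h := congrArg (fun G : Fm a => G P) (expand F ξ ζ c)
  simp only [mulArg_apply, _root_.sum_apply, smul_apply, smul_eq_mul] at h
  exact h

lemma cf_symm {F : Fm a} (hF : IsSymm F) (ξ ζ : S3) {j : ℕ} (hj : j < a + 1) :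
    IsSymm (cf F ξ ζ j) := by
  intro σ P
  refine coeff_eq (n := a + 1) (u := fun j => cf F ξ ζ j (fun i => P (σ i)))
    (v := fun j => cf F ξ ζ j P) ?_ hj
  intro c
  rw [← expand_apply, ← expand_apply]
  exact hF σ (fun i => (ξ + c • ζ) * P i)

lemma cf_isK {F : Fm a} {b : ℕ} (hF : IsK (linS 3) (b + 1) F) {ξ ζ : S3}
    (hξ : ∀ c : ℂ, ξ + c • ζ ∈ linS 3) {j : ℕ} (hj : j < a + 1) :
    IsK (linS 3) b (cf F ξ ζ j) := by
  intro m hm hmL
  refine coeff_eq (n := a + 1) (u := fun j => cf F ξ ζ j (fun _ => m.prod))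
    (v := fun _ => 0) ?_ hj
  intro c
  rw [← expand_apply]
  simp only [mul_zero, Finset.sum_const_zero]
  have h1 := hF ((ξ + c • ζ) ::ₘ m) (by rw [Multiset.card_cons, hm]) (by
    intro x hx
    rcases Multiset.mem_cons.1 hx with rfl | hx
    · exact hξ c
    · exact hmL x hx)
  rw [Multiset.prod_cons] at h1
  exact h1

lemma cf_tau {F : Fm a} {b t : ℕ} (hF : Hom (b + 1) t F) (x : ℂ) {j : ℕ} (hj : j < a + 1)
    {P : Fin a → S3} (hP : Dg b P) {d : ℂ} (hd : d ≠ 0) :
    cf F (ln x) (X 2) j (fun i => tau d (P i)) * d ^ j = d ^ t * cf F (ln x) (X 2) j P := by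
  refine coeff_eq (n := a + 1) (u := fun j => cf F (ln x) (X 2) j (fun i => tau d (P i)) * d ^ j)
    (v := fun j => d ^ t * cf F (ln x) (X 2) j P) ?_ hj
  intro c
  have h1 := hF d hd (fun i => (ln x + c • X 2) * P i) (Dg_mul (b := b + 1) (by omega) hP (line_mem x c))
  have h2 : (fun i => tau d ((ln x + c • X 2) * P i)) =
      fun i => (ln x + (c * d) • X 2) * tau d (P i) := by
    funext i
    rw [map_mul, map_add, map_smul, tau_X2, ln, map_add, map_smul, tau_X0, tau_X1, smul_smul]
  rw [h2, expand_apply, expand_apply, Finset.mul_sum] at h1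
  calc _ = ∑ j ∈ range (a + 1), (c * d) ^ j * cf F (ln x) (X 2) j (fun i => tau d (P i)) := by
        apply Finset.sum_congr rfl
        intro i _
        rw [mul_pow]; ring
    _ = _ := h1
    _ = _ := by
        apply Finset.sum_congr rfl
        intro i _
        ring

lemma cf_hom {F : Fm a} {b t : ℕ} (hF : Hom (b + 1) t F) (x : ℂ) {j : ℕ} (hj : j < a + 1)
    (hjt : j ≤ t) : Hom b (t - j) (cf F (ln x) (X 2) j) := by
  intro d hd P hP
  have h1 := cf_tau hF x hj hP hd
  have h2 : d ^ t = d ^ (t - j) * d ^ j := by rw [← pow_add]; congr 1; omega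
  rw [h2] at h1
  have h3 : d ^ j ≠ 0 := pow_ne_zero _ hd
  apply mul_right_cancel₀ h3
  rw [h1]; ring

lemma cf_zero {F : Fm a} {b t : ℕ} (hF : Hom (b + 1) t F) (x : ℂ) {j : ℕ} (hj : j < a + 1)
    (hjt : t < j) : Van b (cf F (ln x) (X 2) j) := by
  intro P hP
  choose n hn using fun i => curve_tau (P i)
  obtain ⟨q, -, hq⟩ := exists_poly (cf F (ln x) (X 2) j) (fun i d => tau d (P i)) n hn
  apply zero_of_scal (q := q) (n := j - t) (by omega)
  intro d hd
  rw [hq d]
  have h1 := cf_tau hF x hj hP hd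
  have h2 : d ^ j = d ^ (j - t) * d ^ t := by rw [← pow_add]; congr 1; omega
  rw [h2] at h1
  have h3 : d ^ t ≠ 0 := pow_ne_zero _ hd
  apply mul_right_cancel₀ h3
  rw [mul_assoc, h1]; ring

lemma cf_inv {F : Fm a} {b : ℕ} (hF : Inv (b + 1) F) (x : ℂ) {j : ℕ} (hj : j < a + 1)
    (hv : ∀ i, j < i → i < a + 1 → Van b (cf F (ln x) (X 2) i)) :
    Inv b (cf F (ln x) (X 2) j) := by
  intro e P hP
  have key : ∀ (Q : Fin a → S3) (_ : Dg b Q) (c : ℂ),
      F (fun i => (ln x + c • X 2) * Q i) =
        ∑ i ∈ range (j + 1), c ^ i * cf F (ln x) (X 2) i Q := by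
    intro Q hQ c
    rw [expand_apply]
    symm
    apply Finset.sum_subset
    · intro i hi
      rw [Finset.mem_range] at hi ⊢
      omega
    · intro i hi hi'
      rw [Finset.mem_range] at hi hi'
      rw [hv i (by omega) hi Q hQ, mul_zero]
  refine top_eq (j := j) (u := fun i => cf F (ln x) (X 2) i (fun i => sh e (P i)))
    (v := fun i => cf F (ln x) (X 2) i P) (e := e) ?_
  intro c
  have hshP : Dg b (fun i => sh e (P i)) := fun i => sh_mem e (hP i)
  rw [← key _ hshP c, ← key P hP (c - e)]
  rw [← hF e (fun i => (ln x + (c - e) • X 2) * P i)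
    (Dg_mul (b := b + 1) (by omega) hP (line_mem x _))]
  congr 1
  funext i
  rw [map_mul, map_add, map_smul, sh_X2, ln, map_add, map_smul, sh_X0, sh_X1]
  congr 1
  rw [sub_smul]
  ring

lemma cf_van {F : Fm a} {s b t : ℕ} (hsy : IsSymm F) (hI : Inv (b + 1) F) (hH : Hom (b + 1) t F)
    (hk : IsK (linS 3) (b + 1) F) (hK : ∀ t', t' + s ≤ t → KK a b t') (x : ℂ) :
    ∀ j, s ≤ j → j < a + 1 → Van b (cf F (ln x) (X 2) j) := by
  suffices h : ∀ n j, a + 1 ≤ j + n → s ≤ j → j < a + 1 → Van b (cf F (ln x) (X 2) j) by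
    intro j h1 h2
    exact h (a + 1) j (by omega) h1 h2
  intro n
  induction n with
  | zero => intro j h1 h2 h3; omega
  | succ n ih =>
    intro j h1 h2 h3
    by_cases hjt : j ≤ t
    · refine hK (t - j) (by omega) _ (cf_symm hsy _ _ h3) ?_ (cf_hom hH x h3 hjt)
        (cf_isK hk (fun c => line_mem x c) h3)
      exact cf_inv hI x h3 (fun i hi1 hi2 => ih i (by omega) (by omega) hi2)
    · exact cf_zero hH x h3 (by omega)

end H999

/-- Row R8: the kernel step. -/
theorem tstep {s a b t : ℕ} (hs : 1 ≤ s) (hK : ∀ t', t' + s ≤ t → KK a b t')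
    (hL : LL s a (b + 1) t) : KK a (b + 1) t := by
  intro F hsy hI hH hk
  apply hL F hsy hI hH
  intro x h hh
  rw [Nat.add_sub_cancel] at hh
  refine ⟨∑ j ∈ range s, Polynomial.C (if j < a + 1 then H999.cf F (ln x) (X 2) j h else 0) *
    Polynomial.X ^ j, ?_, ?_⟩
  · rw [Polynomial.degree_lt_iff_coeff_zero]
    intro m hm
    rw [Polynomial.finsetSum_coeff]
    apply Finset.sum_eq_zero
    intro i hi
    rw [Finset.mem_range] at hi
    rw [Polynomial.coeff_C_mul, Polynomial.coeff_X_pow]
    have hmi : m ≠ i := by omega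
    simp [hmi]
  · intro c
    rw [H999.expand_apply, Polynomial.eval_finsetSum]
    simp only [Polynomial.eval_mul, Polynomial.eval_C, Polynomial.eval_pow, Polynomial.eval_X]
    have h1 : ∀ j ∈ range (a + 1), c ^ j * H999.cf F (ln x) (X 2) j h =
        if j < s then c ^ j * H999.cf F (ln x) (X 2) j h else 0 := by
      intro j hj
      rw [Finset.mem_range] at hj
      by_cases hjs : j < s
      · rw [if_pos hjs]
      · rw [if_neg hjs, H999.cf_van hsy hI hH hk hK x j (by omega) hj h hh, mul_zero]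
    rw [Finset.sum_congr rfl h1, ← Finset.sum_filter]
    have h2 : ∀ j ∈ range s, (if j < a + 1 then H999.cf F (ln x) (X 2) j h else 0) * c ^ j =
        if j < a + 1 then c ^ j * H999.cf F (ln x) (X 2) j h else 0 := by
      intro j _
      split_ifs
      · ring
      · ring
    rw [Finset.sum_congr rfl h2, ← Finset.sum_filter]
    apply Finset.sum_congr _ (fun _ _ => rfl)
    ext j
    simp only [Finset.mem_range, Finset.mem_filter]
    tauto

end Vale.Agent.P181.T3R
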