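import Vale.Agent.P181.R2.H999.TStep

/-!
# Forms that vanish on a common linear factor (helper999)
-/

set_option autoImplicit false

open MvPolynomial Finset

namespace Vale.Agent.P181.T3R

open Vale.Agent.P181 Vale.Agent.P181.H536 Vale.Agent.P181.H280

namespace H999

variable {a : ℕ}

lemma common_zero_line {b : ℕ} {F : Fm a} (h : QQ 0 b F) (x c : ℂ) (g : Fin a → S3)
    (hg : Dg (b - 1) g) : F (fun i => (ln x + c • X 2) * g i) = 0 := by
  obtain ⟨p, hp, hp'⟩ := h x g hg
  have hp0 : p = 0 := by
    by_contra hne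
    rw [Polynomial.degree_eq_natDegree hne] at hp
    have : p.natDegree < 0 := by exact_mod_cast hp
    omega
  rw [← hp' c, hp0, Polynomial.eval_zero]

lemma common_zero_scal {b : ℕ} {F : Fm a} (h : QQ 0 b F) (α β γ : ℂ) (hα : α ≠ 0)
    (g : Fin a → S3) (hg : Dg (b - 1) g) :
    F (fun i => (α • X 0 + β • X 1 + γ • X 2) * g i) = 0 := by
  have h1 := common_zero_line h (β / α) (γ / α) (fun i => α • g i)
    (fun i => Submodule.smul_mem _ _ (hg i))
  rw [← h1]
  congr 1
  funext i
  have h2 : (α • X 0 + β • X 1 + γ • X 2 : S3) = α • (ln (β / α) + (γ / α) • X 2) := by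
    rw [ln, smul_add, smul_add, smul_smul, smul_smul, mul_div_cancel₀ _ hα,
      mul_div_cancel₀ _ hα]
  rw [h2, smul_mul_assoc, mul_smul_comm]

lemma common_zero {b : ℕ} {F : Fm a} (h : QQ 0 b F) (ξ : S3) (hξ : ξ ∈ linS 3)
    (g : Fin a → S3) (hg : Dg (b - 1) g) : F (fun i => ξ * g i) = 0 := by
  obtain ⟨w, hw⟩ := (Submodule.mem_span_range_iff_exists_fun ℂ).1 hξ
  rw [Fin.sum_univ_three] at hw
  obtain ⟨q, -, hq⟩ := exists_poly F (fun i e => (ξ + e • X 0) * g i) (fun _ => 1) (by
    intro i
    refine ⟨fun l => if l = 0 then ξ * g i else X 0 * g i, fun e => ?_⟩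
    rw [Finset.sum_range_succ, Finset.sum_range_one]
    simp [add_mul])
  have hq0 : q = 0 := by
    apply Polynomial.eq_zero_of_infinite_isRoot
    apply Set.Infinite.mono (s := {-(w 0)}ᶜ)
    · intro e he
      have hne : w 0 + e ≠ 0 := by
        intro h0
        exact he (by rw [Set.mem_singleton_iff]; linear_combination h0)
      have h1 := common_zero_scal h (w 0 + e) (w 1) (w 2) hne g hg
      show q.eval e = 0
      rw [hq e, ← h1]
      congr 1
      funext i
      rw [← hw, add_smul]
      congr 1
      abel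
    · exact Set.Finite.infinite_compl (Set.finite_singleton _)
  have h2 := hq 0
  rw [hq0, Polynomial.eval_zero] at h2
  rw [h2]
  congr 1
  funext i
  rw [zero_smul, add_zero]

/-- A form which vanishes on every common linear factor vanishes, if the degree is at least
the number of arguments. -/
theorem van_of_qq0 {b : ℕ} (hab : a ≤ b) {F : Fm a} (h : QQ 0 b F) : Van b F := by
  refine claimA (linS 3) F (fun _ => b) (fun _ => 1) ?_ ?_
  · intro j
    rw [Finset.sum_const, smul_eq_mul, mul_one, Fin.card_Iic]
    have := j.2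
    omega
  · intro ξ hξ P hP
    simpa only [pow_one] using common_zero h ξ hξ P hP

end H999

end Vale.Agent.P181.T3R
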