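import Vale.Agent.P181.R2.H188.CDefs
import Vale.Agent.P181.R2.H999.McK

/-!
# P181, cubic growth of the three-row tail, row C4 (helper999)
-/

set_option autoImplicit false

open MvPolynomial Finset

namespace Vale.Agent.P181.T3R

open Vale.Agent.P181 Vale.Agent.P181.H536 Vale.Agent.P181.H280

namespace H999

variable {a : ℕ}

lemma cf_inv1 {F : Fm a} {b : ℕ} (hF : Inv1 (b + 1) F) (x : ℂ) {j : ℕ} (hj : j < a + 1)
    (hv : ∀ i, j < i → i < a + 1 → Van b (cf F (ln x) (X 2) i)) :
    Inv1 b (cf F (ln x) (X 2) j) := by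
  intro e P hP
  have key : ∀ (Q : Fin a → S3) (_ : Dg b Q) (c : ℂ),
      F (fun i => (ln x + c • X 2) * Q i) =
        ∑ i ∈ range (j + 1), c ^ i * cf F (ln x) (X 2) i Q := by
    intro Q hQ c
    rw [expand_apply]
    symm
    apply Finset.sum_subset
    · intro i hi
      rw [Finset.mem_range] at hi ⊢
      omega
    · intro i hi hi'
      rw [Finset.mem_range] at hi hi'
      rw [hv i (by omega) hi Q hQ, mul_zero]
  refine top_eq (j := j) (u := fun i => cf F (ln x) (X 2) i (fun i => sh1 e (P i)))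
    (v := fun i => cf F (ln x) (X 2) i P) (e := x * e) ?_
  intro c
  have hshP : Dg b (fun i => sh1 e (P i)) := fun i => sh1_mem e (hP i)
  rw [← key _ hshP c, ← key P hP (c - x * e)]
  rw [← hF e (fun i => (ln x + (c - x * e) • X 2) * P i)
    (Dg_mul (b := b + 1) (by omega) hP (line_mem x _))]
  congr 1
  funext i
  rw [map_mul, map_add, map_smul, sh1_X2, ln, map_add, map_smul, sh1_X0, sh1_X1]
  congr 1
  rw [sub_smul, smul_add, smul_smul]
  abel

/-- All coefficients from the `s`-th on vanish. -/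
lemma cf_vanC {F : Fm a} {s b t : ℕ} (hsy : IsSymm F) (hI : Inv (b + 1) F)
    (hI1 : Inv1 (b + 1) F)
    (hH : Hom (b + 1) t F) (hk : IsK (linS 3) (b + 1) F) (hK : ∀ t', t' + s ≤ t → KK2 a b t')
    (x : ℂ) :
    ∀ j, s ≤ j → j < a + 1 → Van b (cf F (ln x) (X 2) j) := by
  suffices h : ∀ n j, a + 1 ≤ j + n → s ≤ j → j < a + 1 → Van b (cf F (ln x) (X 2) j) by
    intro j h1 h2
    exact h (a + 1) j (by omega) h1 h2
  intro n
  induction n with
  | zero => intro j h1 h2 h3; omega
  | succ n ih =>
    intro j h1 h2 h3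
    by_cases hjt : j ≤ t
    · refine hK (t - j) (by omega) _ (cf_symm hsy _ _ h3) ?_ ?_ (cf_hom hH x h3 hjt)
        (cf_isK hk (fun c => line_mem x c) h3)
      · exact cf_inv hI x h3 (fun i hi1 hi2 => ih i (by omega) (by omega) hi2)
      · exact cf_inv1 hI1 x h3 (fun i hi1 hi2 => ih i (by omega) (by omega) hi2)
    · exact cf_zero hH x h3 (by omega)

/-- The degree condition from vanishing of the coefficients. -/
lemma qq_of_cf {F : Fm a} {s b : ℕ}
    (hv : ∀ (x : ℂ) (j : ℕ), s ≤ j → j < a + 1 → Van b (cf F (ln x) (X 2) j)) :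
    QQ s (b + 1) F := by
  intro x h hh
  rw [Nat.add_sub_cancel] at hh
  refine ⟨∑ j ∈ range s, Polynomial.C (if j < a + 1 then cf F (ln x) (X 2) j h else 0) *
    Polynomial.X ^ j, ?_, ?_⟩
  · rw [Polynomial.degree_lt_iff_coeff_zero]
    intro m hm
    rw [Polynomial.finsetSum_coeff]
    apply Finset.sum_eq_zero
    intro i hi
    rw [Finset.mem_range] at hi
    rw [Polynomial.coeff_C_mul, Polynomial.coeff_X_pow]
    have hmi : m ≠ i := by omega
    simp [hmi]
  · intro c
    rw [expand_apply, Polynomial.eval_finsetSum]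
    simp only [Polynomial.eval_mul, Polynomial.eval_C, Polynomial.eval_pow, Polynomial.eval_X]
    have h1 : ∀ j ∈ range (a + 1), c ^ j * cf F (ln x) (X 2) j h =
        if j < s then c ^ j * cf F (ln x) (X 2) j h else 0 := by
      intro j hj
      rw [Finset.mem_range] at hj
      by_cases hjs : j < s
      · rw [if_pos hjs]
      · rw [if_neg hjs, hv x j (by omega) hj h hh, mul_zero]
    rw [Finset.sum_congr rfl h1, ← Finset.sum_filter]
    have h2 : ∀ j ∈ range s, (if j < a + 1 then cf F (ln x) (X 2) j h else 0) * c ^ j =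
        if j < a + 1 then c ^ j * cf F (ln x) (X 2) j h else 0 := by
      intro j _
      split_ifs
      · ring
      · ring
    rw [Finset.sum_congr rfl h2, ← Finset.sum_filter]
    apply Finset.sum_congr _ (fun _ _ => rfl)
    ext j
    simp only [Finset.mem_range, Finset.mem_filter]
    tauto

end H999

/-- Row C4, first part: the kernel step for both shears. -/
theorem tstep2 {s a b t : ℕ} (_hs : 1 ≤ s) (_ha : 1 ≤ a) (hK : ∀ t', t' + s ≤ t → KK2 a b t')
    (hL : LL2 s a (b + 1) t) : KK2 a (b + 1) t := by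
  intro F hsy hI hI1 hH hk
  exact hL F hsy hI hI1 hH (H999.qq_of_cf fun x => H999.cf_vanC hsy hI hI1 hH hk hK x)

/-- Row C4, second part: no new kernel as long as the degree is at least the number of
arguments. -/
theorem mckay2 {a b t : ℕ} (hab : a ≤ b + 1) (hK : ∀ t', t' ≤ t → KK2 a b t') :
    KK2 a (b + 1) t := by
  intro F hsy hI hI1 hH hk
  apply H999.van_of_qq0 hab
  exact H999.qq_of_cf fun x => H999.cf_vanC (s := 0) hsy hI hI1 hH hk
    (fun t' ht' => hK t' (by omega)) x

end Vale.Agent.P181.T3R
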