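import Mathlib

/-!
# P181.ThreeRowTail, rows R8 and R9 (helper999)

Pure arithmetic of the tail recursion.  `V a b t` stands for: nothing of degree `t` in the kernel
at `(a, b)`; `L s a b t` for: `Q_s (a, b, t) = 0`.
-/

namespace Vale.Agent.P181.H999

/-- R8, slope two: `T(b) >= 2 b - 5 a`. -/
theorem slope_two (V : ℕ → ℕ → ℕ → Prop) (L : ℕ → ℕ → ℕ → ℕ → Prop)
    (hTree : ∀ a b t, 1 ≤ a → t + a ≤ b + 1 → V a b t)
    (hL2 : ∀ a b t, 1 ≤ a → 4 * a ≤ b → b < 2 * t → L 2 a b t)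
    (hStep : ∀ s a b t, 1 ≤ a → 2 ≤ s → s ≤ t → 1 ≤ b →
      (∀ t', t' + s ≤ t → V a (b - 1) t') → L s a b t → V a b t) :
    ∀ a b t, 1 ≤ a → 2 * t + 10 * a ≤ 4 * b → V a b t := by
  intro a b
  induction b with
  | zero => intro t ha h; omega
  | succ b ih =>
    intro t ha h
    by_cases h1 : t + a ≤ b + 1 + 1
    · exact hTree a (b + 1) t ha h1
    · push Not at h1
      refine hStep 2 a (b + 1) t ha le_rfl (by omega) (by omega) ?_ (hL2 a (b + 1) t ha (by omega) (by omega))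
      intro t' ht'
      rw [Nat.add_sub_cancel]
      exact ih t' ha (by omega)

/-- R8: `T(b) >= s b - 5 a s (s-1) / 2` for every `s >= 2`. -/
theorem slope_all (V : ℕ → ℕ → ℕ → Prop) (L : ℕ → ℕ → ℕ → ℕ → Prop)
    (hTree : ∀ a b t, 1 ≤ a → t + a ≤ b + 1 → V a b t)
    (hL2 : ∀ a b t, 1 ≤ a → 4 * a ≤ b → b < 2 * t → L 2 a b t)
    (hLs : ∀ s a b, 3 ≤ s → 1 ≤ a → 2 * a ≤ b →
      (∀ a' t, 1 ≤ a' → a' ≤ a → 2 * t ≤ s * b → V a' b t) →
      ∀ t, (s - 1) * b < 2 * t → L s a b t)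
    (hStep : ∀ s a b t, 1 ≤ a → 2 ≤ s → s ≤ t → 1 ≤ b →
      (∀ t', t' + s ≤ t → V a (b - 1) t') → L s a b t → V a b t)
    (s : ℕ) (hs : 2 ≤ s) :
    ∀ a b t, 1 ≤ a → 2 * t + 5 * a * (s * (s - 1)) ≤ 2 * (s * b) → V a b t := by
  induction s, hs using Nat.le_induction with
  | base =>
    intro a b t ha h
    exact slope_two V L hTree hL2 hStep a b t ha (by omega)
  | succ s hs ihs =>
    intro a b
    induction b with
    | zero =>
      intro t ha h
      exfalso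
      have : 0 < 5 * a * ((s + 1) * (s + 1 - 1)) := by positivity
      omega
    | succ b ihb =>
      intro t ha h
      have e1 : s + 1 - 1 = s := rfl
      rw [e1] at h
      obtain ⟨r, rfl⟩ : ∃ r, s = r + 1 := ⟨s - 1, by omega⟩
      have e2 : r + 1 - 1 = r := rfl
      rw [e2] at ihs
      by_cases h1 : b + 1 ≤ 5 * a * (r + 1)
      · -- covered by the previous slope
        apply ihs a (b + 1) t ha
        nlinarith
      · push Not at h1
        by_cases h2 : 2 * t ≤ (r + 1) * (b + 1)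
        · apply ihs a (b + 1) t ha
          nlinarith
        · push Not at h2
          have h3 : r + 1 + 1 ≤ t := by nlinarith
          refine hStep (r + 1 + 1) a (b + 1) t ha (by omega) h3 (by omega) ?_ ?_
          · intro t' ht'
            rw [Nat.add_sub_cancel]
            refine ihb t' ha ?_
            rw [e1]
            nlinarith
          · refine hLs (r + 1 + 1) a (b + 1) (by omega) ha (by nlinarith) ?_ t h2
            intro a' t' ha' haa ht'
            apply ihs a' (b + 1) t' ha'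
            have h4 : 5 * a' * ((r + 1) * r) ≤ 5 * a * ((r + 1) * r) := by gcongr
            nlinarith

/-- R9: the best slope. -/
theorem best_slope (a b t : ℕ) (ha : 1 ≤ a) (hab : 5 * a ≤ b)
    (ht : 10 * a * t ≤ b * (b + 5 * a)) :
    ∃ s, 2 ≤ s ∧ 2 * t + 5 * a * (s * (s - 1)) ≤ 2 * (s * b) := by
  have h5 : 0 < 5 * a := by omega
  refine ⟨b / (5 * a) + 1, ?_, ?_⟩
  · have : 1 ≤ b / (5 * a) := by
      rw [Nat.one_le_div_iff h5]; exact hab
    omega
  · set q := b / (5 * a) with hq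
    set ρ := b % (5 * a) with hρ
    have hb : b = 5 * a * q + ρ := (Nat.div_add_mod b (5 * a)).symm
    have hlt : ρ < 5 * a := Nat.mod_lt _ h5
    rw [show q + 1 - 1 = q from rfl]
    clear_value q ρ
    subst hb
    -- 10 a * claim
    have key : 5 * a * (2 * t + 5 * a * ((q + 1) * q)) ≤ 5 * a * (2 * ((q + 1) * (5 * a * q + ρ))) := by
      have h1 : ρ * ρ ≤ ρ * (5 * a) := Nat.mul_le_mul_left _ hlt.le
      nlinarith
    exact Nat.le_of_mul_le_mul_left key h5

/-- R8 + R9: everything with `10 a t <= b (b + 5 a)`, `b >= 5 a`. -/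
theorem tail_final (V : ℕ → ℕ → ℕ → Prop) (L : ℕ → ℕ → ℕ → ℕ → Prop)
    (hTree : ∀ a b t, 1 ≤ a → t + a ≤ b + 1 → V a b t)
    (hL2 : ∀ a b t, 1 ≤ a → 4 * a ≤ b → b < 2 * t → L 2 a b t)
    (hLs : ∀ s a b, 3 ≤ s → 1 ≤ a → 2 * a ≤ b →
      (∀ a' t, 1 ≤ a' → a' ≤ a → 2 * t ≤ s * b → V a' b t) →
      ∀ t, (s - 1) * b < 2 * t → L s a b t)
    (hStep : ∀ s a b t, 1 ≤ a → 2 ≤ s → s ≤ t → 1 ≤ b →
      (∀ t', t' + s ≤ t → V a (b - 1) t') → L s a b t → V a b t)
    (a b t : ℕ) (ha : 1 ≤ a) (hab : 5 * a ≤ b) (ht : 10 * a * t ≤ b * (b + 5 * a)) : V a b t := by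
  obtain ⟨s, hs, h⟩ := best_slope a b t ha hab ht
  exact slope_all V L hTree hL2 hLs hStep s hs a b t ha h

end Vale.Agent.P181.H999
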